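import Mathlib

/-!
# P065: halving lines of planar point sets -- basic definitions
-/

namespace Vale.Agent.Lib.P065

open Classical in
/-- Orientation determinant of the triple `(a, b, p)`: it is positive / negative / zero according
as `p` lies strictly to the left of / strictly to the right of / on the line through `a` and `b`
(directed from `a` to `b`). -/
def orient (a b p : ℝ × ℝ) : ℝ :=
  (b.1 - a.1) * (p.2 - a.2) - (b.2 - a.2) * (p.1 - a.1)

/-- No three distinct points of `P` are collinear. -/
def NoThreeCollinear (P : Finset (ℝ × ℝ)) : Prop :=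
  ∀ a ∈ P, ∀ b ∈ P, ∀ c ∈ P, a ≠ b → a ≠ c → b ≠ c →
    ¬ Collinear ℝ ({a, b, c} : Set (ℝ × ℝ))

/-- The line through the two distinct points `a`, `b` is a halving line of `P`:
each of its two open half-planes contains exactly `(|P| - 2) / 2` points of `P`. -/
def IsHalving (P : Finset (ℝ × ℝ)) (a b : ℝ × ℝ) : Prop :=
  a ≠ b ∧ 2 * (P.filter (fun p => 0 < orient a b p)).card + 2 = P.card ∧
    2 * (P.filter (fun p => orient a b p < 0)).card + 2 = P.card

open Classical in
/-- `h(P)`: the number of unordered pairs of points of `P` spanning a halving line. -/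
noncomputable def halvingCount (P : Finset (ℝ × ℝ)) : ℕ :=
  ((P.powersetCard 2).filter (fun e => ∃ a b, e = {a, b} ∧ IsHalving P a b)).card

open Classical in
/-- The vertices of the convex hull of a finite set `Q` (its extreme points): the points of `Q`
that do not lie in the convex hull of the other points of `Q`. -/
noncomputable def hullVertices (Q : Finset (ℝ × ℝ)) : Finset (ℝ × ℝ) :=
  Q.filter (fun v => v ∉ convexHull ℝ ((Q.erase v : Finset (ℝ × ℝ)) : Set (ℝ × ℝ)))

/-- One step of onion peeling: delete the vertices of the convex hull. -/
noncomputable def peel (Q : Finset (ℝ × ℝ)) : Finset (ℝ × ℝ) := Q \ hullVertices Q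

end Vale.Agent.Lib.P065
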