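import Vale.Agent.Lib.P065.Local

namespace Vale.Agent.Lib.P065

open Finset

lemma orient_swap (a b p : ℝ × ℝ) : orient b a p = - orient a b p := by
  unfold orient; ring

lemma IsHalving.symm {P : Finset (ℝ × ℝ)} {a b : ℝ × ℝ} (h : IsHalving P a b) :
    IsHalving P b a := by
  obtain ⟨h1, h2, h3⟩ := h
  refine ⟨h1.symm, ?_, ?_⟩
  · have : (P.filter (fun p => 0 < orient b a p)) = (P.filter (fun p => orient a b p < 0)) := by
      apply Finset.filter_congr
      intro p _
      rw [orient_swap]
      constructor <;> intro h <;> linarith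
    rw [this]; exact h3
  · have : (P.filter (fun p => orient b a p < 0)) = (P.filter (fun p => 0 < orient a b p)) := by
      apply Finset.filter_congr
      intro p _
      rw [orient_swap]
      constructor <;> intro h <;> linarith
    rw [this]; exact h2

open Classical in
/-- twice the number of halving pairs is at most the number of ordered halving pairs -/
lemma two_mul_halvingCount_le (P : Finset (ℝ × ℝ)) :
    2 * halvingCount P ≤ ((P ×ˢ P).filter (fun z => IsHalving P z.1 z.2)).card := by
  unfold halvingCount
  set U := (P.powersetCard 2).filter (fun e => ∃ a b, e = {a, b} ∧ IsHalving P a b) with hU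
  set E := (P ×ˢ P).filter (fun z => IsHalving P z.1 z.2) with hE
  have hmaps : Set.MapsTo (fun z : (ℝ × ℝ) × (ℝ × ℝ) => ({z.1, z.2} : Finset (ℝ × ℝ))) E U := by
    intro z hz
    simp only [hE, Finset.coe_filter, Finset.mem_product, Set.mem_setOf_eq] at hz
    simp only [hU, Finset.coe_filter, Finset.mem_powersetCard, Set.mem_setOf_eq]
    refine ⟨⟨?_, Finset.card_pair hz.2.1⟩, z.1, z.2, rfl, hz.2⟩
    intro w hw
    simp only [Finset.mem_insert, Finset.mem_singleton] at hw
    rcases hw with rfl | rfl
    · exact hz.1.1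
    · exact hz.1.2
  rw [Finset.card_eq_sum_card_fiberwise hmaps]
  have := Finset.card_nsmul_le_sum U
    (fun b => (E.filter (fun z => ({z.1, z.2} : Finset (ℝ × ℝ)) = b)).card) 2 ?_
  · simpa [mul_comm] using this
  · intro b hb
    simp only [hU, Finset.mem_filter, Finset.mem_powersetCard] at hb
    obtain ⟨⟨hbP, _⟩, a, c, rfl, hH⟩ := hb
    have haP : a ∈ P := hbP (by simp)
    have hcP : c ∈ P := hbP (by simp)
    have : 1 < (E.filter (fun z => ({z.1, z.2} : Finset (ℝ × ℝ)) = {a, c})).card := by
      rw [Finset.one_lt_card]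
      refine ⟨(a, c), ?_, (c, a), ?_, ?_⟩
      · simp only [hE, Finset.mem_filter, Finset.mem_product]
        exact ⟨⟨⟨haP, hcP⟩, hH⟩, trivial⟩
      · simp only [hE, Finset.mem_filter, Finset.mem_product]
        exact ⟨⟨⟨hcP, haP⟩, hH.symm⟩, Finset.pair_comm _ _⟩
      · intro h
        exact hH.1 (Prod.ext_iff.1 h).1
    exact this

open Classical in
/-- Main counting theorem for a general peeling sequence. -/
theorem global_bound (P : Finset (ℝ × ℝ)) (hP : NoThreeCollinear P) (Q : ℕ → Finset (ℝ × ℝ))
    (L : ℕ) (hQ0 : Q 0 = P) (hQL : Q L = ∅) (hanti : ∀ j, Q (j + 1) ⊆ Q j)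
    (hext : ∀ j, ∀ v ∈ Q j, v ∉ Q (j + 1) →
      v ∉ convexHull ℝ (((Q j).erase v : Finset (ℝ × ℝ)) : Set (ℝ × ℝ))) :
    2 * halvingCount P + 2 * ∑ j ∈ Finset.range L, (Q j).card ≤ (2 * L + 1) * P.card := by
  have hmono : ∀ i j, i ≤ j → Q j ⊆ Q i := by
    intro i j hij
    induction hij with
    | refl => exact Finset.Subset.refl _
    | step _ ih => exact (hanti _).trans ih
  set depth : ℝ × ℝ → ℕ := fun v => ((Finset.range L).filter (fun j => v ∈ Q j)).card with hdepth
  have hmem : ∀ v j, v ∈ Q j ↔ j < depth v := by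
    intro v j
    constructor
    · intro hvj
      have hjL : j < L := by
        by_contra hcon
        have := hmono L j (not_lt.1 hcon) hvj
        rw [hQL] at this
        simp at this
      have hsub : Finset.range (j + 1) ⊆ (Finset.range L).filter (fun j => v ∈ Q j) := by
        intro i hi
        simp only [Finset.mem_range] at hi
        simp only [Finset.mem_filter, Finset.mem_range]
        exact ⟨by omega, hmono i j (by omega) hvj⟩
      have := Finset.card_le_card hsub
      rw [Finset.card_range] at this
      exact this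
    · intro hj
      by_contra hvj
      have hsub : (Finset.range L).filter (fun j => v ∈ Q j) ⊆ Finset.range j := by
        intro i hi
        simp only [Finset.mem_filter, Finset.mem_range] at hi
        simp only [Finset.mem_range]
        by_contra hcon
        exact hvj (hmono j i (not_lt.1 hcon) hi.2)
      have := Finset.card_le_card hsub
      rw [Finset.card_range] at this
      exact absurd hj (not_lt.2 this)
  have hdepthL : ∀ v, depth v ≤ L := by
    intro v
    have := Finset.card_filter_le (Finset.range L) (fun j => v ∈ Q j)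
    rwa [Finset.card_range] at this
  have hdepth1 : ∀ v ∈ P, 1 ≤ depth v := by
    intro v hv
    exact (hmem v 0).1 (hQ0 ▸ hv)
  have hsumdepth : ∑ v ∈ P, depth v = ∑ j ∈ Finset.range L, (Q j).card := by
    simp only [hdepth, Finset.card_filter]
    rw [Finset.sum_comm]
    refine Finset.sum_congr rfl ?_
    intro j _
    rw [← Finset.card_filter]
    congr 1
    ext v
    simp only [Finset.mem_filter]
    constructor
    · exact fun h => h.2
    · intro h
      exact ⟨hQ0 ▸ hmono 0 j (Nat.zero_le _) h, h⟩
  set W : ℝ × ℝ → ℤ := fun v => 2 * ((L : ℤ) - depth v) + 1 with hW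
  have hW1 : ∀ v, 1 ≤ W v := by
    intro v
    have : (depth v : ℤ) ≤ L := by exact_mod_cast hdepthL v
    simp only [hW]; linarith
  set F : ℝ × ℝ → ℝ × ℝ → ℤ := fun v u =>
    if IsHalving P v u then (if depth v ≤ depth u then W v else - W v) else 0 with hF
  -- local bound
  have hlocal : ∀ v ∈ P, ∑ u ∈ P, F v u ≤ W v := by
    intro v hv
    have hd1 := hdepth1 v hv
    set j := depth v - 1 with hj
    have hvj : v ∈ Q j := (hmem v j).2 (by omega)
    have hvj1 : v ∉ Q (j + 1) := fun h => by
      have := (hmem v (j + 1)).1 h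
      omega
    have hloc := local_ineq P hP v hv ((Q j).erase v) (hext j v hvj hvj1)
    have hS : ∀ u, IsHalving P v u → (u ∈ (Q j).erase v ↔ depth v ≤ depth u) := by
      intro u hu
      rw [Finset.mem_erase, hmem u j]
      constructor
      · intro h; omega
      · intro h; exact ⟨hu.1.symm, by omega⟩
    have e1 : (P.filter (fun u => IsHalving P v u ∧ u ∈ (Q j).erase v))
        = P.filter (fun u => IsHalving P v u ∧ depth v ≤ depth u) := by
      apply Finset.filter_congr
      intro u _
      constructor
      · rintro ⟨h1, h2⟩; exact ⟨h1, (hS u h1).1 h2⟩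
      · rintro ⟨h1, h2⟩; exact ⟨h1, (hS u h1).2 h2⟩
    have e2 : (P.filter (fun u => IsHalving P v u ∧ u ∉ (Q j).erase v))
        = P.filter (fun u => IsHalving P v u ∧ ¬ depth v ≤ depth u) := by
      apply Finset.filter_congr
      intro u _
      constructor
      · rintro ⟨h1, h2⟩; exact ⟨h1, fun h => h2 ((hS u h1).2 h)⟩
      · rintro ⟨h1, h2⟩; exact ⟨h1, fun h => h2 ((hS u h1).1 h)⟩
    rw [e1, e2] at hloc
    have hsum : ∑ u ∈ P, F v u
        = W v * ((P.filter (fun u => IsHalving P v u ∧ depth v ≤ depth u)).card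
          - (P.filter (fun u => IsHalving P v u ∧ ¬ depth v ≤ depth u)).card) := by
      rw [Finset.card_filter, Finset.card_filter]
      push_cast
      rw [← Finset.sum_sub_distrib, Finset.mul_sum]
      refine Finset.sum_congr rfl ?_
      intro u _
      simp only [hF]
      by_cases h1 : IsHalving P v u <;> by_cases h2 : depth v ≤ depth u <;> simp [h1, h2]
    rw [hsum]
    have hWv := hW1 v
    nlinarith
  -- symmetrisation
  have hsymm : ∀ v u, (if IsHalving P v u then (2 : ℤ) else 0) ≤ F v u + F u v := by
    intro v u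
    simp only [hF]
    by_cases h1 : IsHalving P v u
    · have h2 : IsHalving P u v := h1.symm
      simp only [h1, h2, if_true]
      have hv1 := hW1 v
      have hu1 := hW1 u
      rcases lt_trichotomy (depth v) (depth u) with h | h | h
      · have h3 : depth v ≤ depth u := h.le
        have h4 : ¬ depth u ≤ depth v := not_le.2 h
        simp only [h3, h4, if_true, if_false]
        simp only [hW]
        have : (depth v : ℤ) + 1 ≤ depth u := by exact_mod_cast h
        linarith
      · have h3 : depth v ≤ depth u := h.le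
        have h4 : depth u ≤ depth v := h.ge
        simp only [h3, h4, if_true]
        linarith
      · have h3 : ¬ depth v ≤ depth u := not_le.2 h
        have h4 : depth u ≤ depth v := h.le
        simp only [h3, h4, if_true, if_false]
        simp only [hW]
        have : (depth u : ℤ) + 1 ≤ depth v := by exact_mod_cast h
        linarith
    · have h2 : ¬ IsHalving P u v := fun h => h1 h.symm
      simp [h1, h2]
  have hcomm : ∑ v ∈ P, ∑ u ∈ P, F u v = ∑ v ∈ P, ∑ u ∈ P, F v u := Finset.sum_comm
  have hE : (((P ×ˢ P).filter (fun z => IsHalving P z.1 z.2)).card : ℤ)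
      = ∑ v ∈ P, ∑ u ∈ P, (if IsHalving P v u then (1 : ℤ) else 0) := by
    rw [Finset.card_filter, Finset.sum_product]
    push_cast
    rfl
  have h2E : 2 * (((P ×ˢ P).filter (fun z => IsHalving P z.1 z.2)).card : ℤ)
      ≤ 2 * ∑ v ∈ P, ∑ u ∈ P, F v u := by
    rw [hE, Finset.mul_sum]
    calc ∑ v ∈ P, 2 * ∑ u ∈ P, (if IsHalving P v u then (1 : ℤ) else 0)
        = ∑ v ∈ P, ∑ u ∈ P, (if IsHalving P v u then (2 : ℤ) else 0) := by
          refine Finset.sum_congr rfl ?_
          intro v _
          rw [Finset.mul_sum]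
          refine Finset.sum_congr rfl ?_
          intro u _
          split_ifs <;> norm_num
      _ ≤ ∑ v ∈ P, ∑ u ∈ P, (F v u + F u v) :=
          Finset.sum_le_sum (fun v _ => Finset.sum_le_sum (fun u _ => hsymm v u))
      _ = 2 * ∑ v ∈ P, ∑ u ∈ P, F v u := by
          simp only [Finset.sum_add_distrib]
          rw [hcomm]; ring
  have hFW : ∑ v ∈ P, ∑ u ∈ P, F v u ≤ ∑ v ∈ P, W v := Finset.sum_le_sum hlocal
  have hWsum : ∑ v ∈ P, W v = (2 * (L : ℤ) + 1) * P.card - 2 * ∑ j ∈ Finset.range L, ((Q j).card : ℤ) := by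
    have : ∑ j ∈ Finset.range L, ((Q j).card : ℤ) = ∑ v ∈ P, (depth v : ℤ) := by
      have := hsumdepth
      exact_mod_cast this.symm
    rw [this]
    simp only [hW]
    rw [Finset.mul_sum, Finset.card_eq_sum_ones]
    push_cast
    rw [Finset.mul_sum, ← Finset.sum_sub_distrib]
    refine Finset.sum_congr rfl ?_
    intro v _
    ring
  have hfin := two_mul_halvingCount_le P
  have hfin' : (2 * (halvingCount P : ℤ)) ≤ ((P ×ˢ P).filter (fun z => IsHalving P z.1 z.2)).card := by
    exact_mod_cast hfin
  have : (2 * (halvingCount P : ℤ)) + 2 * ∑ j ∈ Finset.range L, ((Q j).card : ℤ)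
      ≤ (2 * (L : ℤ) + 1) * P.card := by linarith
  exact_mod_cast this

end Vale.Agent.Lib.P065
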