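import Vale.Agent.Lib.P065.KLocal
import Vale.Agent.Lib.P065.Global

namespace Vale.Agent.Lib.P065

open Finset

open Classical in
/-- Main counting theorem for `k`-edges and a general peeling sequence. -/
theorem global_bound_k (P : Finset (ℝ × ℝ)) (hP : NoThreeCollinear P) (k : ℕ)
    (Q : ℕ → Finset (ℝ × ℝ))
    (L : ℕ) (hQ0 : Q 0 = P) (hQL : Q L = ∅) (hanti : ∀ j, Q (j + 1) ⊆ Q j)
    (hext : ∀ j, ∀ v ∈ Q j, v ∉ Q (j + 1) →
      v ∉ convexHull ℝ (((Q j).erase v : Finset (ℝ × ℝ)) : Set (ℝ × ℝ))) :
    ((P ×ˢ P).filter (fun z => IsKEdge P k z.1 z.2)).card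
      + 2 * ∑ j ∈ Finset.range L, (Q j).card ≤ (2 * L + 1) * P.card := by
  have hmono : ∀ i j, i ≤ j → Q j ⊆ Q i := by
    intro i j hij
    induction hij with
    | refl => exact Finset.Subset.refl _
    | step _ ih => exact (hanti _).trans ih
  set depth : ℝ × ℝ → ℕ := fun v => ((Finset.range L).filter (fun j => v ∈ Q j)).card with hdepth
  have hmem : ∀ v j, v ∈ Q j ↔ j < depth v := by
    intro v j
    constructor
    · intro hvj
      have hjL : j < L := by
        by_contra hcon
        have := hmono L j (not_lt.1 hcon) hvj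
        rw [hQL] at this
        simp at this
      have hsub : Finset.range (j + 1) ⊆ (Finset.range L).filter (fun j => v ∈ Q j) := by
        intro i hi
        simp only [Finset.mem_range] at hi
        simp only [Finset.mem_filter, Finset.mem_range]
        exact ⟨by omega, hmono i j (by omega) hvj⟩
      have := Finset.card_le_card hsub
      rw [Finset.card_range] at this
      exact this
    · intro hj
      by_contra hvj
      have hsub : (Finset.range L).filter (fun j => v ∈ Q j) ⊆ Finset.range j := by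
        intro i hi
        simp only [Finset.mem_filter, Finset.mem_range] at hi
        simp only [Finset.mem_range]
        by_contra hcon
        exact hvj (hmono j i (not_lt.1 hcon) hi.2)
      have := Finset.card_le_card hsub
      rw [Finset.card_range] at this
      exact absurd hj (not_lt.2 this)
  have hdepthL : ∀ v, depth v ≤ L := by
    intro v
    have := Finset.card_filter_le (Finset.range L) (fun j => v ∈ Q j)
    rwa [Finset.card_range] at this
  have hdepth1 : ∀ v ∈ P, 1 ≤ depth v := by
    intro v hv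
    exact (hmem v 0).1 (hQ0 ▸ hv)
  have hsumdepth : ∑ v ∈ P, depth v = ∑ j ∈ Finset.range L, (Q j).card := by
    simp only [hdepth, Finset.card_filter]
    rw [Finset.sum_comm]
    refine Finset.sum_congr rfl ?_
    intro j _
    rw [← Finset.card_filter]
    congr 1
    ext v
    simp only [Finset.mem_filter]
    constructor
    · exact fun h => h.2
    · intro h
      exact ⟨hQ0 ▸ hmono 0 j (Nat.zero_le _) h, h⟩
  set W : ℝ × ℝ → ℤ := fun v => 2 * ((L : ℤ) - depth v) + 1 with hW
  have hW1 : ∀ v, 1 ≤ W v := by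
    intro v
    have : (depth v : ℤ) ≤ L := by exact_mod_cast hdepthL v
    simp only [hW]; linarith
  set N : ℝ × ℝ → ℝ × ℝ → ℤ := fun v u =>
    (if IsKEdge P k v u then 1 else 0) + (if IsKEdge P k u v then 1 else 0) with hN
  have hN0 : ∀ v u, 0 ≤ N v u := by
    intro v u
    simp only [hN]
    split_ifs <;> norm_num
  have hNsymm : ∀ v u, N v u = N u v := by
    intro v u
    simp only [hN]
    ring
  set F : ℝ × ℝ → ℝ × ℝ → ℤ := fun v u =>
    N v u * (if depth v ≤ depth u then W v else - W v) with hF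
  -- local bound
  have hlocal : ∀ v ∈ P, ∑ u ∈ P, F v u ≤ 2 * W v := by
    intro v hv
    have hd1 := hdepth1 v hv
    set j := depth v - 1 with hj
    have hvj : v ∈ Q j := (hmem v j).2 (by omega)
    have hvj1 : v ∉ Q (j + 1) := fun h => by
      have := (hmem v (j + 1)).1 h
      omega
    obtain ⟨hlocA, hlocB⟩ := local_ineq_k P hP k v hv ((Q j).erase v) (hext j v hvj hvj1)
    have hS : ∀ u, u ≠ v → (u ∈ (Q j).erase v ↔ depth v ≤ depth u) := by
      intro u hu
      rw [Finset.mem_erase, hmem u j]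
      constructor
      · intro h; omega
      · intro h; exact ⟨hu, by omega⟩
    have e1 : (P.filter (fun u => IsKEdge P k v u ∧ u ∈ (Q j).erase v))
        = P.filter (fun u => IsKEdge P k v u ∧ depth v ≤ depth u) := by
      apply Finset.filter_congr
      intro u _
      constructor
      · rintro ⟨h1, h2⟩; exact ⟨h1, (hS u h1.1.symm).1 h2⟩
      · rintro ⟨h1, h2⟩; exact ⟨h1, (hS u h1.1.symm).2 h2⟩
    have e2 : (P.filter (fun u => IsKEdge P k v u ∧ u ∉ (Q j).erase v))
        = P.filter (fun u => IsKEdge P k v u ∧ ¬ depth v ≤ depth u) := by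
      apply Finset.filter_congr
      intro u _
      constructor
      · rintro ⟨h1, h2⟩; exact ⟨h1, fun h => h2 ((hS u h1.1.symm).2 h)⟩
      · rintro ⟨h1, h2⟩; exact ⟨h1, fun h => h2 ((hS u h1.1.symm).1 h)⟩
    have e3 : (P.filter (fun u => IsKEdge P k u v ∧ u ∈ (Q j).erase v))
        = P.filter (fun u => IsKEdge P k u v ∧ depth v ≤ depth u) := by
      apply Finset.filter_congr
      intro u _
      constructor
      · rintro ⟨h1, h2⟩; exact ⟨h1, (hS u h1.1).1 h2⟩
      · rintro ⟨h1, h2⟩; exact ⟨h1, (hS u h1.1).2 h2⟩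
    have e4 : (P.filter (fun u => IsKEdge P k u v ∧ u ∉ (Q j).erase v))
        = P.filter (fun u => IsKEdge P k u v ∧ ¬ depth v ≤ depth u) := by
      apply Finset.filter_congr
      intro u _
      constructor
      · rintro ⟨h1, h2⟩; exact ⟨h1, fun h => h2 ((hS u h1.1).2 h)⟩
      · rintro ⟨h1, h2⟩; exact ⟨h1, fun h => h2 ((hS u h1.1).1 h)⟩
    rw [e1, e4] at hlocA
    rw [e3, e2] at hlocB
    have hsum : ∑ u ∈ P, F v u
        = W v * (((P.filter (fun u => IsKEdge P k v u ∧ depth v ≤ depth u)).card
          + (P.filter (fun u => IsKEdge P k u v ∧ depth v ≤ depth u)).card)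
          - ((P.filter (fun u => IsKEdge P k v u ∧ ¬ depth v ≤ depth u)).card
          + (P.filter (fun u => IsKEdge P k u v ∧ ¬ depth v ≤ depth u)).card)) := by
      rw [Finset.card_filter, Finset.card_filter, Finset.card_filter, Finset.card_filter]
      push_cast
      rw [← Finset.sum_add_distrib, ← Finset.sum_add_distrib, ← Finset.sum_sub_distrib,
        Finset.mul_sum]
      refine Finset.sum_congr rfl ?_
      intro u _
      simp only [hF, hN]
      by_cases h1 : IsKEdge P k v u <;> by_cases h3 : IsKEdge P k u v <;>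
        by_cases h2 : depth v ≤ depth u <;> simp [h1, h2, h3] <;> ring
    rw [hsum]
    have hWv := hW1 v
    nlinarith
  -- symmetrisation
  have hsymm : ∀ v u, 2 * N v u ≤ F v u + F u v := by
    intro v u
    simp only [hF]
    rw [hNsymm u v]
    have hn := hN0 v u
    have hv1 := hW1 v
    have hu1 := hW1 u
    rcases lt_trichotomy (depth v) (depth u) with h | h | h
    · have h3 : depth v ≤ depth u := h.le
      have h4 : ¬ depth u ≤ depth v := not_le.2 h
      simp only [h3, h4, if_true, if_false]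
      have : (depth v : ℤ) + 1 ≤ depth u := by exact_mod_cast h
      have hd : 2 ≤ W v - W u := by simp only [hW]; linarith
      nlinarith
    · have h3 : depth v ≤ depth u := h.le
      have h4 : depth u ≤ depth v := h.ge
      simp only [h3, h4, if_true]
      nlinarith
    · have h3 : ¬ depth v ≤ depth u := not_le.2 h
      have h4 : depth u ≤ depth v := h.le
      simp only [h3, h4, if_true, if_false]
      have : (depth u : ℤ) + 1 ≤ depth v := by exact_mod_cast h
      have hd : 2 ≤ W u - W v := by simp only [hW]; linarith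
      nlinarith
  have hcomm : ∑ v ∈ P, ∑ u ∈ P, F u v = ∑ v ∈ P, ∑ u ∈ P, F v u := Finset.sum_comm
  have hE : (((P ×ˢ P).filter (fun z => IsKEdge P k z.1 z.2)).card : ℤ)
      = ∑ v ∈ P, ∑ u ∈ P, (if IsKEdge P k v u then (1 : ℤ) else 0) := by
    rw [Finset.card_filter, Finset.sum_product]
    push_cast
    rfl
  have hE' : ∑ v ∈ P, ∑ u ∈ P, (if IsKEdge P k u v then (1 : ℤ) else 0)
      = ∑ v ∈ P, ∑ u ∈ P, (if IsKEdge P k v u then (1 : ℤ) else 0) := Finset.sum_comm
  have hNsum : ∑ v ∈ P, ∑ u ∈ P, N v u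
      = 2 * (((P ×ˢ P).filter (fun z => IsKEdge P k z.1 z.2)).card : ℤ) := by
    simp only [hN, Finset.sum_add_distrib]
    rw [hE', hE]; ring
  have h2E : 2 * ∑ v ∈ P, ∑ u ∈ P, N v u ≤ 2 * ∑ v ∈ P, ∑ u ∈ P, F v u := by
    calc 2 * ∑ v ∈ P, ∑ u ∈ P, N v u = ∑ v ∈ P, ∑ u ∈ P, 2 * N v u := by
          rw [Finset.mul_sum]
          refine Finset.sum_congr rfl ?_
          intro v _
          rw [Finset.mul_sum]
      _ ≤ ∑ v ∈ P, ∑ u ∈ P, (F v u + F u v) :=
          Finset.sum_le_sum (fun v _ => Finset.sum_le_sum (fun u _ => hsymm v u))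
      _ = 2 * ∑ v ∈ P, ∑ u ∈ P, F v u := by
          simp only [Finset.sum_add_distrib]
          rw [hcomm]; ring
  have hFW : ∑ v ∈ P, ∑ u ∈ P, F v u ≤ ∑ v ∈ P, 2 * W v := Finset.sum_le_sum hlocal
  have hWsum : ∑ v ∈ P, W v
      = (2 * (L : ℤ) + 1) * P.card - 2 * ∑ j ∈ Finset.range L, ((Q j).card : ℤ) := by
    have : ∑ j ∈ Finset.range L, ((Q j).card : ℤ) = ∑ v ∈ P, (depth v : ℤ) := by
      have := hsumdepth
      exact_mod_cast this.symm
    rw [this]
    simp only [hW]
    rw [Finset.mul_sum, Finset.card_eq_sum_ones]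
    push_cast
    rw [Finset.mul_sum, ← Finset.sum_sub_distrib]
    refine Finset.sum_congr rfl ?_
    intro v _
    ring
  rw [← Finset.mul_sum] at hFW
  have : (((P ×ˢ P).filter (fun z => IsKEdge P k z.1 z.2)).card : ℤ)
      + 2 * ∑ j ∈ Finset.range L, ((Q j).card : ℤ) ≤ (2 * (L : ℤ) + 1) * P.card := by linarith
  exact_mod_cast this

end Vale.Agent.Lib.P065
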