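import Vale.Agent.Lib.P065.Local

namespace Vale.Agent.Lib.P065

open Finset Topology

/-- crossing lemma at an arbitrary level -/
theorem crossing_level {ι : Type*} [DecidableEq ι] (c : ι → ℝ) (e : ι → ℤ) (s : Finset ι) (a : ℤ)
    (hinj : Set.InjOn c s) (he : ∀ i ∈ s, e i = 1 ∨ e i = -1)
    (hpar : ∀ i ∈ s, Even (a + Dsum s c e i)) :
    ((s.filter (fun i => a + Dsum s c e i = 0 ∧ e i = 1)).card : ℤ)
      ≤ (s.filter (fun i => a + Dsum s c e i = 0 ∧ e i = -1)).card + 1 := by
  have h := telescoping c e s hinj a
  have hterm : ∀ i ∈ s, (phi (a + Dsum s c e i + e i) - phi (a + Dsum s c e i - e i))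
      = (if a + Dsum s c e i = 0 ∧ e i = 1 then 1 else 0)
        - (if a + Dsum s c e i = 0 ∧ e i = -1 then 1 else 0) := by
    intro i hi
    obtain ⟨k, hk⟩ := hpar i hi
    rcases he i hi with h1 | h1
    · rw [h1, hk]
      unfold phi
      split_ifs <;> first | omega | rfl | (exfalso; simp_all)
    · rw [h1, hk]
      unfold phi
      split_ifs <;> first | omega | rfl | (exfalso; simp_all)
  rw [Finset.sum_congr rfl hterm, Finset.sum_sub_distrib] at h
  rw [Finset.card_filter, Finset.card_filter]
  push_cast
  have := phi_sub_le_one (a + ∑ j ∈ s, e j) (a - ∑ j ∈ s, e j)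
  linarith

/-- The ordered pair `(a, b)` is a `k`-edge of `P`: `a ≠ b` and exactly `k` points of `P` lie
strictly to the left of the directed line from `a` to `b`. -/
def IsKEdge (P : Finset (ℝ × ℝ)) (k : ℕ) (a b : ℝ × ℝ) : Prop :=
  a ≠ b ∧ (P.filter (fun p => 0 < orient a b p)).card = k

lemma orient_swap' (a b p : ℝ × ℝ) : orient b a p = - orient a b p := by
  unfold orient; ring

open Classical in
/-- Balance of `k`-edges at a vertex `v` that is not in the convex hull of `S`. -/
theorem local_ineq_k (P : Finset (ℝ × ℝ)) (hP : NoThreeCollinear P) (k : ℕ) (v : ℝ × ℝ)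
    (hv : v ∈ P) (S : Finset (ℝ × ℝ)) (hS : v ∉ convexHull ℝ (S : Set (ℝ × ℝ))) :
    ((P.filter (fun u => IsKEdge P k v u ∧ u ∈ S)).card : ℤ)
        ≤ (P.filter (fun u => IsKEdge P k u v ∧ u ∉ S)).card + 1 ∧
    ((P.filter (fun u => IsKEdge P k u v ∧ u ∈ S)).card : ℤ)
        ≤ (P.filter (fun u => IsKEdge P k v u ∧ u ∉ S)).card + 1 := by
  obtain ⟨α, β, hposS, hgen⟩ := exists_generic_functional P S v hS
  set s := P.erase v with hs
  set y : ℝ × ℝ → ℝ := fun p => α * (p.1 - v.1) + β * (p.2 - v.2) with hy
  set x : ℝ × ℝ → ℝ := fun p => β * (p.1 - v.1) - α * (p.2 - v.2) with hx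
  set c : ℝ × ℝ → ℝ := fun p => - x p / y p with hc
  set e : ℝ × ℝ → ℤ := fun p => sg (y p) with he
  have hy0 : ∀ p ∈ s, y p ≠ 0 := by
    intro p hp
    exact hgen p (Finset.mem_of_mem_erase hp) (Finset.ne_of_mem_erase hp)
  have hsq : ∀ p ∈ s, 0 < α ^ 2 + β ^ 2 := by
    intro p hp
    have h0 := hy0 p hp
    by_contra hcon
    have ha : α = 0 := by nlinarith [sq_nonneg α, sq_nonneg β]
    have hb : β = 0 := by nlinarith [sq_nonneg α, sq_nonneg β]
    apply h0
    simp [hy, ha, hb]
  have key : ∀ p ∈ s, ∀ q ∈ s, (α ^ 2 + β ^ 2) * orient v p q = y p * y q * (c q - c p) := by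
    intro p hp q hq
    have h1 := hy0 p hp
    have h2 := hy0 q hq
    simp only [hc]
    field_simp
    simp only [hx, hy, orient]
    ring
  have hsign : ∀ p ∈ s, ∀ q ∈ s, sg (orient v p q) = e p * (e q * sg (c q - c p)) := by
    intro p hp q hq
    have h1 : sg ((α ^ 2 + β ^ 2) * orient v p q) = sg (orient v p q) := by
      rw [sg_mul, sg_pos (hsq p hp), one_mul]
    rw [← h1, key p hp q hq, sg_mul, sg_mul]
    ring
  have hesq : ∀ p ∈ s, e p = 1 ∨ e p = -1 := fun p hp => sg_ne_zero_cases (hy0 p hp)
  have hposneg : ∀ p ∈ s, ((P.filter (fun q => 0 < orient v p q)).card : ℤ)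
      - (P.filter (fun q => orient v p q < 0)).card = e p * Dsum s c e p := by
    intro p hp
    rw [card_pos_sub_card_neg, ← Finset.sum_erase P (a := v) (by rw [orient_self_right, sg_zero])]
    unfold Dsum
    rw [Finset.mul_sum]
    exact Finset.sum_congr rfl (fun q hq => hsign p hp q hq)
  have hzero : ∀ p ∈ s, (P.filter (fun q => orient v p q = 0)) = {v, p} := by
    intro p hp
    have hpP := Finset.mem_of_mem_erase hp
    have hpv := Finset.ne_of_mem_erase hp
    ext q
    simp only [Finset.mem_filter, Finset.mem_insert, Finset.mem_singleton]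
    constructor
    · rintro ⟨hq, h0⟩
      by_contra hcon
      push Not at hcon
      exact hP v hv p hpP q hq hpv.symm hcon.1.symm hcon.2.symm
        (collinear_of_orient_eq_zero hpv.symm h0)
    · rintro (rfl | rfl)
      · exact ⟨hv, orient_self_right _ _⟩
      · exact ⟨hpP, orient_self_right' _ _⟩
  have htotal : ∀ p ∈ s, (P.filter (fun q => 0 < orient v p q)).card
      + (P.filter (fun q => orient v p q < 0)).card + 2 = P.card := by
    intro p hp
    have h1 := card_trichotomy P (fun q => orient v p q)
    rw [hzero p hp, Finset.card_pair (Finset.ne_of_mem_erase hp).symm] at h1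
    exact h1
  have hinj : Set.InjOn c s := by
    intro p hp q hq hpq
    by_contra hne
    have hp' : p ∈ s := hp
    have hq' : q ∈ s := hq
    have h1 := key p hp' q hq'
    rw [hpq, sub_self, mul_zero] at h1
    have h2 := (mul_eq_zero.1 h1).resolve_left (hsq p hp').ne'
    have h3 : q ∈ P.filter (fun q => orient v p q = 0) := by
      simp only [Finset.mem_filter]
      exact ⟨Finset.mem_of_mem_erase hq', h2⟩
    rw [hzero p hp'] at h3
    simp only [Finset.mem_insert, Finset.mem_singleton] at h3
    rcases h3 with h3 | h3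
    · exact (Finset.ne_of_mem_erase hq') h3
    · exact hne h3.symm
  -- the level
  set τ : ℤ := (P.card : ℤ) - 2 - 2 * k with hτ
  have hout : ∀ p ∈ s, (IsKEdge P k v p ↔ e p * Dsum s c e p = -τ) := by
    intro p hp
    have h1 := hposneg p hp
    have h2 := htotal p hp
    have h2' : ((P.filter (fun q => 0 < orient v p q)).card : ℤ)
      + (P.filter (fun q => orient v p q < 0)).card + 2 = P.card := by exact_mod_cast h2
    constructor
    · rintro ⟨_, h3⟩
      have h3' : ((P.filter (fun q => 0 < orient v p q)).card : ℤ) = k := by exact_mod_cast h3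
      rw [← h1, hτ]; linarith
    · intro h0
      refine ⟨(Finset.ne_of_mem_erase hp).symm, ?_⟩
      have : ((P.filter (fun q => 0 < orient v p q)).card : ℤ) = k := by
        rw [← h1, hτ] at h0; linarith
      exact_mod_cast this
  have hin : ∀ p ∈ s, (IsKEdge P k p v ↔ e p * Dsum s c e p = τ) := by
    intro p hp
    have h1 := hposneg p hp
    have h2 := htotal p hp
    have h2' : ((P.filter (fun q => 0 < orient v p q)).card : ℤ)
      + (P.filter (fun q => orient v p q < 0)).card + 2 = P.card := by exact_mod_cast h2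
    have hfl : (P.filter (fun q => 0 < orient p v q)) = (P.filter (fun q => orient v p q < 0)) := by
      apply Finset.filter_congr
      intro q _
      rw [orient_swap']
      constructor <;> intro h <;> linarith
    constructor
    · rintro ⟨_, h3⟩
      rw [hfl] at h3
      have h3' : ((P.filter (fun q => orient v p q < 0)).card : ℤ) = k := by exact_mod_cast h3
      rw [← h1, hτ]; linarith
    · intro h0
      refine ⟨Finset.ne_of_mem_erase hp, ?_⟩
      rw [hfl]
      have : ((P.filter (fun q => orient v p q < 0)).card : ℤ) = k := by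
        rw [← h1, hτ] at h0; linarith
      exact_mod_cast this
  have hparD : ∀ p ∈ s, Even (τ + Dsum s c e p) ∧ Even (-τ + Dsum s c e p) := by
    intro p hp
    have h1 := hposneg p hp
    have h2 := htotal p hp
    have h2' : ((P.filter (fun q => 0 < orient v p q)).card : ℤ)
      + (P.filter (fun q => orient v p q < 0)).card + 2 = P.card := by exact_mod_cast h2
    rcases hesq p hp with h6 | h6
    · rw [h6] at h1
      constructor
      · refine ⟨(P.filter (fun q => 0 < orient v p q)).card - k, ?_⟩
        rw [hτ]; linarith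
      · refine ⟨k - (P.filter (fun q => orient v p q < 0)).card, ?_⟩
        rw [hτ]; linarith
    · rw [h6] at h1
      constructor
      · refine ⟨(P.filter (fun q => orient v p q < 0)).card - k, ?_⟩
        rw [hτ]; linarith
      · refine ⟨k - (P.filter (fun q => 0 < orient v p q)).card, ?_⟩
        rw [hτ]; linarith
  have hcross1 := crossing_level c e s τ hinj hesq (fun p hp => (hparD p hp).1)
  have hcross2 := crossing_level c e s (-τ) hinj hesq (fun p hp => (hparD p hp).2)
  constructor
  · have hsub1 : (P.filter (fun u => IsKEdge P k v u ∧ u ∈ S))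
        ⊆ s.filter (fun i => τ + Dsum s c e i = 0 ∧ e i = 1) := by
      intro u hu
      simp only [Finset.mem_filter] at hu ⊢
      obtain ⟨huP, hH, huS⟩ := hu
      have hus : u ∈ s := Finset.mem_erase.2 ⟨hH.1.symm, huP⟩
      have he1 : e u = 1 := sg_pos (hposS u huS)
      have := (hout u hus).1 hH
      rw [he1] at this
      exact ⟨hus, by linarith, he1⟩
    have hsub2 : s.filter (fun i => τ + Dsum s c e i = 0 ∧ e i = -1)
        ⊆ (P.filter (fun u => IsKEdge P k u v ∧ u ∉ S)) := by
      intro u hu
      simp only [Finset.mem_filter] at hu ⊢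
      obtain ⟨hus, hD, heu⟩ := hu
      refine ⟨Finset.mem_of_mem_erase hus, (hin u hus).2 (by rw [heu]; linarith), ?_⟩
      intro huS
      have : e u = 1 := sg_pos (hposS u huS)
      rw [this] at heu
      norm_num at heu
    have h1 := Finset.card_le_card hsub1
    have h2 := Finset.card_le_card hsub2
    have h1' : ((P.filter (fun u => IsKEdge P k v u ∧ u ∈ S)).card : ℤ)
        ≤ (s.filter (fun i => τ + Dsum s c e i = 0 ∧ e i = 1)).card := by exact_mod_cast h1
    have h2' : ((s.filter (fun i => τ + Dsum s c e i = 0 ∧ e i = -1)).card : ℤ)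
        ≤ (P.filter (fun u => IsKEdge P k u v ∧ u ∉ S)).card := by exact_mod_cast h2
    linarith
  · have hsub1 : (P.filter (fun u => IsKEdge P k u v ∧ u ∈ S))
        ⊆ s.filter (fun i => -τ + Dsum s c e i = 0 ∧ e i = 1) := by
      intro u hu
      simp only [Finset.mem_filter] at hu ⊢
      obtain ⟨huP, hH, huS⟩ := hu
      have hus : u ∈ s := Finset.mem_erase.2 ⟨hH.1, huP⟩
      have he1 : e u = 1 := sg_pos (hposS u huS)
      have := (hin u hus).1 hH
      rw [he1] at this
      exact ⟨hus, by linarith, he1⟩
    have hsub2 : s.filter (fun i => -τ + Dsum s c e i = 0 ∧ e i = -1)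
        ⊆ (P.filter (fun u => IsKEdge P k v u ∧ u ∉ S)) := by
      intro u hu
      simp only [Finset.mem_filter] at hu ⊢
      obtain ⟨hus, hD, heu⟩ := hu
      refine ⟨Finset.mem_of_mem_erase hus, (hout u hus).2 (by rw [heu]; linarith), ?_⟩
      intro huS
      have : e u = 1 := sg_pos (hposS u huS)
      rw [this] at heu
      norm_num at heu
    have h1 := Finset.card_le_card hsub1
    have h2 := Finset.card_le_card hsub2
    have h1' : ((P.filter (fun u => IsKEdge P k u v ∧ u ∈ S)).card : ℤ)
        ≤ (s.filter (fun i => -τ + Dsum s c e i = 0 ∧ e i = 1)).card := by exact_mod_cast h1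
    have h2' : ((s.filter (fun i => -τ + Dsum s c e i = 0 ∧ e i = -1)).card : ℤ)
        ≤ (P.filter (fun u => IsKEdge P k v u ∧ u ∉ S)).card := by exact_mod_cast h2
    linarith

end Vale.Agent.Lib.P065
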