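import Vale.Agent.Lib.P065.Defs

/-!
# P065: `k`-sets of planar point sets -- definitions
-/

namespace Vale.Agent.Lib.P065

/-- `S` is a `k`-set of `P`: a `k`-element subset of `P` that is strictly separated from `P \ S`
by a line `{(x, y) : α x + β y = c}`. -/
def IsKSet (P : Finset (ℝ × ℝ)) (k : ℕ) (S : Finset (ℝ × ℝ)) : Prop :=
  S ⊆ P ∧ S.card = k ∧ ∃ α β c : ℝ, (α ≠ 0 ∨ β ≠ 0) ∧
    (∀ s ∈ S, α * s.1 + β * s.2 < c) ∧ (∀ t ∈ P \ S, c < α * t.1 + β * t.2)

open Classical in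
/-- The number of `k`-sets of `P`. -/
noncomputable def kSetCount (P : Finset (ℝ × ℝ)) (k : ℕ) : ℕ :=
  (P.powerset.filter (fun S => IsKSet P k S)).card

end Vale.Agent.Lib.P065
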