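import Vale.Agent.Lib.P065.KSetDefs
import Vale.Agent.Lib.P065.KLocal

namespace Vale.Agent.Lib.P065

open Finset

/-- every `k`-set comes from a `(k-1)`-edge -/
lemma exists_edge_of_kset (P : Finset (ℝ × ℝ)) (hP : NoThreeCollinear P) (k : ℕ) (hk1 : 1 ≤ k)
    (hkn : k < P.card) (S : Finset (ℝ × ℝ)) (hS : IsKSet P k S) :
    ∃ q ∈ P, ∃ p ∈ P, IsKEdge P (k - 1) q p ∧
      insert p (P.filter (fun x => 0 < orient q p x)) = S := by
  obtain ⟨hSP, hcard, α, β, c, hne, hlt, hgt⟩ := hS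
  have hSne : S.Nonempty := by
    rw [← Finset.card_pos]; omega
  have hTne : (P \ S).Nonempty := by
    rw [← Finset.card_pos, Finset.card_sdiff_of_subset hSP]; omega
  set y : (ℝ × ℝ) × (ℝ × ℝ) → ℝ := fun z => α * (z.2.1 - z.1.1) + β * (z.2.2 - z.1.2) with hy
  set x : (ℝ × ℝ) × (ℝ × ℝ) → ℝ := fun z => β * (z.2.1 - z.1.1) - α * (z.2.2 - z.1.2) with hx
  have hypos : ∀ z ∈ S ×ˢ (P \ S), 0 < y z := by
    intro z hz
    rw [Finset.mem_product] at hz
    have h1 := hlt z.1 hz.1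
    have h2 := hgt z.2 hz.2
    simp only [hy]
    linarith
  obtain ⟨z0, hz0, hmin⟩ := Finset.exists_min_image (S ×ˢ (P \ S)) (fun z => - x z / y z)
    (hSne.product hTne)
  obtain ⟨p, q⟩ := z0
  rw [Finset.mem_product] at hz0
  simp only at hz0
  obtain ⟨hpS, hqT⟩ := hz0
  have hpP : p ∈ P := hSP hpS
  have hqP : q ∈ P := (Finset.mem_sdiff.1 hqT).1
  have hqS : q ∉ S := (Finset.mem_sdiff.1 hqT).2
  have hpq : p ≠ q := fun h => hqS (h ▸ hpS)
  have hsq : 0 < α ^ 2 + β ^ 2 := by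
    rcases hne with h | h
    · have := sq_pos_of_ne_zero h
      nlinarith [sq_nonneg β]
    · have := sq_pos_of_ne_zero h
      nlinarith [sq_nonneg α]
  -- the determinant inequality
  have hdet : ∀ p' ∈ S, ∀ q' ∈ P \ S,
      0 ≤ (q.1 - p.1) * (q'.2 - p'.2) - (q.2 - p.2) * (q'.1 - p'.1) := by
    intro p' hp' q' hq'
    have hz : (p', q') ∈ S ×ˢ (P \ S) := Finset.mem_product.2 ⟨hp', hq'⟩
    have h1 := hmin (p', q') hz
    have hy1 := hypos (p, q) (Finset.mem_product.2 ⟨hpS, hqT⟩)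
    have hy2 := hypos (p', q') hz
    rw [div_le_div_iff₀ hy1 hy2] at h1
    have h2 : (α ^ 2 + β ^ 2) * ((q.1 - p.1) * (q'.2 - p'.2) - (q.2 - p.2) * (q'.1 - p'.1))
        = x (p, q) * y (p', q') - x (p', q') * y (p, q) := by
      simp only [hx, hy]; ring
    have h3 : 0 ≤ (α ^ 2 + β ^ 2) * ((q.1 - p.1) * (q'.2 - p'.2) - (q.2 - p.2) * (q'.1 - p'.1)) := by
      rw [h2]; linarith
    exact nonneg_of_mul_nonneg_right h3 hsq
  have hne0 : ∀ w ∈ P, w ≠ p → w ≠ q → orient q p w ≠ 0 := by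
    intro w hw hwp hwq h0
    exact hP q hqP p hpP w hw hpq.symm hwq.symm hwp.symm
      (collinear_of_orient_eq_zero hpq.symm h0)
  have hfilter : P.filter (fun w => 0 < orient q p w) = S.erase p := by
    ext w
    simp only [Finset.mem_filter, Finset.mem_erase]
    constructor
    · rintro ⟨hwP, hw⟩
      have hwp : w ≠ p := by
        rintro rfl
        rw [orient_self_right'] at hw
        exact lt_irrefl _ hw
      refine ⟨hwp, ?_⟩
      by_contra hwS
      have hwT : w ∈ P \ S := Finset.mem_sdiff.2 ⟨hwP, hwS⟩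
      have h1 := hdet p hpS w hwT
      unfold orient at hw
      nlinarith
    · rintro ⟨hwp, hwS⟩
      have hwP := hSP hwS
      have hwq : w ≠ q := fun h => hqS (h ▸ hwS)
      refine ⟨hwP, ?_⟩
      have h1 := hdet w hwS q hqT
      have h2 := hne0 w hwP hwp hwq
      have h3 : 0 ≤ orient q p w := by
        unfold orient
        nlinarith
      exact lt_of_le_of_ne h3 (Ne.symm h2)
  refine ⟨q, hqP, p, hpP, ⟨hpq.symm, ?_⟩, ?_⟩
  · rw [hfilter, Finset.card_erase_of_mem hpS, hcard]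
  · rw [hfilter, Finset.insert_erase hpS]

open Classical in
/-- the number of `k`-sets is at most the number of `(k-1)`-edges -/
theorem kSetCount_le (P : Finset (ℝ × ℝ)) (hP : NoThreeCollinear P) (k : ℕ) (hk1 : 1 ≤ k)
    (hkn : k < P.card) :
    kSetCount P k ≤ ((P ×ˢ P).filter (fun z => IsKEdge P (k - 1) z.1 z.2)).card := by
  unfold kSetCount
  refine Finset.card_le_card_of_surjOn
    (fun z : (ℝ × ℝ) × (ℝ × ℝ) => insert z.2 (P.filter (fun x => 0 < orient z.1 z.2 x))) ?_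
  intro S hS
  simp only [Finset.coe_filter, Finset.mem_powerset, Set.mem_ofPred_eq] at hS
  obtain ⟨q, hq, p, hp, hE, hins⟩ := exists_edge_of_kset P hP k hk1 hkn S hS.2
  refine ⟨(q, p), ?_, hins⟩
  simp only [Finset.coe_filter, Finset.mem_product, Set.mem_ofPred_eq]
  exact ⟨⟨hq, hp⟩, hE⟩

end Vale.Agent.Lib.P065
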