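import Mathlib

namespace Vale.Agent.Lib.P065

open Finset

/-- integer sign of a real -/
noncomputable def sg (x : ℝ) : ℤ := if 0 < x then 1 else if x < 0 then -1 else 0

lemma sg_pos {x : ℝ} (h : 0 < x) : sg x = 1 := by simp [sg, h]
lemma sg_neg {x : ℝ} (h : x < 0) : sg x = -1 := by simp [sg, h, not_lt.2 h.le]
lemma sg_zero : sg 0 = 0 := by simp [sg]

def phi (g : ℤ) : ℤ := if 0 < g then 1 else 0

noncomputable def Dsum {ι : Type*} (s : Finset ι) (c : ι → ℝ) (e : ι → ℤ) (i : ι) : ℤ :=
  ∑ j ∈ s, e j * sg (c j - c i)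

theorem telescoping {ι : Type*} [DecidableEq ι] (c : ι → ℝ) (e : ι → ℤ) (s : Finset ι)
    (hinj : Set.InjOn c s) : ∀ a : ℤ,
    ∑ i ∈ s, (phi (a + Dsum s c e i + e i) - phi (a + Dsum s c e i - e i))
      = phi (a + ∑ j ∈ s, e j) - phi (a - ∑ j ∈ s, e j) := by
  induction s using Finset.induction_on_max_value c with
  | empty => intro a; simp
  | insert m s hm hmax ih =>
    intro a
    have hinj' : Set.InjOn c s := hinj.mono (by simp)
    have hlt : ∀ x ∈ s, c x < c m := by
      intro x hx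
      refine lt_of_le_of_ne (hmax x hx) ?_
      intro h
      have := hinj (by simp [hx]) (by simp) h
      exact hm (this ▸ hx)
    have h1 : ∀ i ∈ s, Dsum (insert m s) c e i = Dsum s c e i + e m := by
      intro i hi
      unfold Dsum
      rw [Finset.sum_insert hm, sg_pos (sub_pos.2 (hlt i hi))]
      ring
    have h2 : Dsum (insert m s) c e m = - ∑ j ∈ s, e j := by
      unfold Dsum
      rw [Finset.sum_insert hm, sub_self, sg_zero, mul_zero, zero_add, ← Finset.sum_neg_distrib]
      refine Finset.sum_congr rfl ?_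
      intro j hj
      rw [sg_neg (sub_neg.2 (hlt j hj))]
      ring
    rw [Finset.sum_insert hm, h2, Finset.sum_insert hm]
    have h3 : ∑ i ∈ s, (phi (a + Dsum (insert m s) c e i + e i) - phi (a + Dsum (insert m s) c e i - e i))
        = ∑ i ∈ s, (phi ((a + e m) + Dsum s c e i + e i) - phi ((a + e m) + Dsum s c e i - e i)) := by
      refine Finset.sum_congr rfl ?_
      intro i hi
      rw [h1 i hi]
      congr 2 <;> ring
    rw [h3, ih hinj' (a + e m)]
    have e1 : a + -∑ j ∈ s, e j + e m = a + e m - ∑ j ∈ s, e j := by ring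
    have e2 : a + -∑ j ∈ s, e j - e m = a - (e m + ∑ j ∈ s, e j) := by ring
    have e3 : a + e m + ∑ j ∈ s, e j = a + (e m + ∑ j ∈ s, e j) := by ring
    rw [e1, e2, e3]
    ring

lemma phi_sub_le_one (x y : ℤ) : phi x - phi y ≤ 1 := by
  unfold phi; split_ifs <;> norm_num

/-- crossing lemma -/
theorem crossing {ι : Type*} [DecidableEq ι] (c : ι → ℝ) (e : ι → ℤ) (s : Finset ι)
    (hinj : Set.InjOn c s) (he : ∀ i ∈ s, e i = 1 ∨ e i = -1)
    (hpar : ∀ i ∈ s, Even (Dsum s c e i)) :
    ((s.filter (fun i => Dsum s c e i = 0 ∧ e i = 1)).card : ℤ)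
      ≤ (s.filter (fun i => Dsum s c e i = 0 ∧ e i = -1)).card + 1 := by
  have h := telescoping c e s hinj 0
  have hterm : ∀ i ∈ s, (phi (0 + Dsum s c e i + e i) - phi (0 + Dsum s c e i - e i))
      = (if Dsum s c e i = 0 ∧ e i = 1 then 1 else 0) - (if Dsum s c e i = 0 ∧ e i = -1 then 1 else 0) := by
    intro i hi
    obtain ⟨k, hk⟩ := hpar i hi
    rcases he i hi with h1 | h1
    · rw [h1, hk]
      unfold phi
      split_ifs <;> first | omega | rfl | (exfalso; simp_all) | (exfalso; omega)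
    · rw [h1, hk]
      unfold phi
      split_ifs <;> first | omega | rfl | (exfalso; simp_all) | (exfalso; omega)
  rw [Finset.sum_congr rfl hterm, Finset.sum_sub_distrib] at h
  rw [Finset.card_filter, Finset.card_filter]
  push_cast
  have := phi_sub_le_one (0 + ∑ j ∈ s, e j) (0 - ∑ j ∈ s, e j)
  linarith

end Vale.Agent.Lib.P065
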