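import Vale.Agent.Lib.P065.Defs
import Vale.Agent.Lib.P065.OneD

namespace Vale.Agent.Lib.P065

open Finset Topology

lemma sg_mul (x y : ℝ) : sg (x * y) = sg x * sg y := by
  rcases lt_trichotomy x 0 with hx | hx | hx <;> rcases lt_trichotomy y 0 with hy | hy | hy
  · rw [sg_neg hx, sg_neg hy, sg_pos (mul_pos_of_neg_of_neg hx hy)]; norm_num
  · subst hy; simp [sg_zero]
  · rw [sg_neg hx, sg_pos hy, sg_neg (mul_neg_of_neg_of_pos hx hy)]; norm_num
  · subst hx; simp [sg_zero]
  · subst hx; simp [sg_zero]
  · subst hx; simp [sg_zero]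
  · rw [sg_pos hx, sg_neg hy, sg_neg (mul_neg_of_pos_of_neg hx hy)]; norm_num
  · subst hy; simp [sg_zero]
  · rw [sg_pos hx, sg_pos hy, sg_pos (mul_pos hx hy)]; norm_num

lemma sg_eq_ite (x : ℝ) : sg x = (if 0 < x then 1 else 0) - (if x < 0 then 1 else 0) := by
  rcases lt_trichotomy x 0 with hx | hx | hx
  · rw [sg_neg hx]; simp [hx, not_lt.2 hx.le]
  · subst hx; simp [sg_zero]
  · rw [sg_pos hx]; simp [hx, not_lt.2 hx.le]

lemma sg_ne_zero_cases {x : ℝ} (hx : x ≠ 0) : sg x = 1 ∨ sg x = -1 := by
  rcases lt_or_gt_of_ne hx with h | h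
  · right; exact sg_neg h
  · left; exact sg_pos h

lemma collinear_of_orient_eq_zero {a b c : ℝ × ℝ} (hab : a ≠ b) (h : orient a b c = 0) :
    Collinear ℝ ({a, b, c} : Set (ℝ × ℝ)) := by
  rw [collinear_iff_of_mem (p₀ := a) (by simp)]
  refine ⟨b - a, ?_⟩
  intro p hp
  simp only [Set.mem_insert_iff, Set.mem_singleton_iff] at hp
  rcases hp with rfl | rfl | rfl
  · exact ⟨0, by simp⟩
  · exact ⟨1, by simp⟩
  · unfold orient at h
    by_cases h1 : b.1 - a.1 = 0
    · have h2 : b.2 - a.2 ≠ 0 := by
        intro h2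
        apply hab
        ext
        · linarith
        · linarith
      refine ⟨(p.2 - a.2) / (b.2 - a.2), ?_⟩
      have h3 : p.1 - a.1 = 0 := by
        rw [h1] at h
        have : (b.2 - a.2) * (p.1 - a.1) = 0 := by linarith
        rcases mul_eq_zero.1 this with h4 | h4
        · exact absurd h4 h2
        · exact h4
      ext
      · simp only [vadd_eq_add, Prod.fst_add, Prod.smul_fst, Prod.fst_sub, smul_eq_mul]
        rw [h1]; linarith
      · simp only [vadd_eq_add, Prod.snd_add, Prod.smul_snd, Prod.snd_sub, smul_eq_mul]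
        field_simp
        ring
    · refine ⟨(p.1 - a.1) / (b.1 - a.1), ?_⟩
      ext
      · simp only [vadd_eq_add, Prod.fst_add, Prod.smul_fst, Prod.fst_sub, smul_eq_mul]
        field_simp
        ring
      · simp only [vadd_eq_add, Prod.snd_add, Prod.smul_snd, Prod.snd_sub, smul_eq_mul]
        field_simp
        linarith

lemma clm_apply_prod (f : StrongDual ℝ (ℝ × ℝ)) (p : ℝ × ℝ) :
    f p = f (1, 0) * p.1 + f (0, 1) * p.2 := by
  have : p = p.1 • ((1 : ℝ), (0 : ℝ)) + p.2 • ((0 : ℝ), (1 : ℝ)) := by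
    ext <;> simp
  conv_lhs => rw [this]
  rw [map_add, map_smul, map_smul]
  simp only [smul_eq_mul]
  ring

lemma exists_generic_functional (P S : Finset (ℝ × ℝ)) (v : ℝ × ℝ)
    (hS : v ∉ convexHull ℝ (S : Set (ℝ × ℝ))) :
    ∃ α β : ℝ, (∀ s ∈ S, 0 < α * (s.1 - v.1) + β * (s.2 - v.2)) ∧
      (∀ p ∈ P, p ≠ v → α * (p.1 - v.1) + β * (p.2 - v.2) ≠ 0) := by
  obtain ⟨f, u, hfv, hfS⟩ := geometric_hahn_banach_point_closed (convex_convexHull ℝ _)
    (S.finite_toSet.isClosed_convexHull ℝ) hS
  have h1 : ∃ α β : ℝ, (α ≠ 0 ∨ β ≠ 0) ∧ ∀ s ∈ S, 0 < α * (s.1 - v.1) + β * (s.2 - v.2) := by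
    have hpos : ∀ s ∈ S, 0 < f (1, 0) * (s.1 - v.1) + f (0, 1) * (s.2 - v.2) := by
      intro s hs
      have h2 := hfS s (subset_convexHull ℝ _ hs)
      rw [clm_apply_prod f s] at h2
      rw [clm_apply_prod f v] at hfv
      nlinarith
    by_cases hne : S.Nonempty
    · refine ⟨f (1, 0), f (0, 1), ?_, hpos⟩
      obtain ⟨s, hs⟩ := hne
      by_contra hcon
      push Not at hcon
      have := hpos s hs
      rw [hcon.1, hcon.2] at this
      simp at this
    · refine ⟨1, 0, Or.inl one_ne_zero, ?_⟩
      intro s hs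
      exact absurd ⟨s, hs⟩ hne
  obtain ⟨α, β, hne, hpos⟩ := h1
  have hev1 : ∀ᶠ t in 𝓝[≠] (0 : ℝ), ∀ s ∈ S,
      0 < (α + t * β) * (s.1 - v.1) + (β - t * α) * (s.2 - v.2) := by
    rw [Finset.eventually_all]
    intro s hs
    apply Filter.Eventually.filter_mono nhdsWithin_le_nhds
    have hcont : Continuous
        (fun t : ℝ => (α + t * β) * (s.1 - v.1) + (β - t * α) * (s.2 - v.2)) := by fun_prop
    have h0 : (0 : ℝ) < (fun t : ℝ => (α + t * β) * (s.1 - v.1) + (β - t * α) * (s.2 - v.2)) 0 := by
      simpa using hpos s hs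
    exact (hcont.continuousAt (x := 0)).eventually (lt_mem_nhds h0)
  have hev2 : ∀ᶠ t in 𝓝[≠] (0 : ℝ), ∀ p ∈ P, p ≠ v →
      (α + t * β) * (p.1 - v.1) + (β - t * α) * (p.2 - v.2) ≠ 0 := by
    rw [Finset.eventually_all]
    intro p hp
    by_cases hpv : p = v
    · exact Filter.Eventually.of_forall (fun t h => absurd hpv h)
    by_cases hy : α * (p.1 - v.1) + β * (p.2 - v.2) = 0
    · -- then x ≠ 0
      have hx : β * (p.1 - v.1) - α * (p.2 - v.2) ≠ 0 := by
        intro hx
        apply hpv
        have hsq : 0 < α ^ 2 + β ^ 2 := by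
          rcases hne with h | h
          · have := sq_pos_of_ne_zero h
            nlinarith [sq_nonneg β]
          · have := sq_pos_of_ne_zero h
            nlinarith [sq_nonneg α]
        have e1 : (α ^ 2 + β ^ 2) * (p.1 - v.1) = 0 := by
          have : (α ^ 2 + β ^ 2) * (p.1 - v.1)
            = α * (α * (p.1 - v.1) + β * (p.2 - v.2)) + β * (β * (p.1 - v.1) - α * (p.2 - v.2)) := by
            ring
          rw [this, hy, hx]; ring
        have e2 : (α ^ 2 + β ^ 2) * (p.2 - v.2) = 0 := by
          have : (α ^ 2 + β ^ 2) * (p.2 - v.2)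
            = β * (α * (p.1 - v.1) + β * (p.2 - v.2)) - α * (β * (p.1 - v.1) - α * (p.2 - v.2)) := by
            ring
          rw [this, hy, hx]; ring
        have f1 := (mul_eq_zero.1 e1).resolve_left hsq.ne'
        have f2 := (mul_eq_zero.1 e2).resolve_left hsq.ne'
        ext
        · linarith
        · linarith
      filter_upwards [self_mem_nhdsWithin] with t ht _
      have : (α + t * β) * (p.1 - v.1) + (β - t * α) * (p.2 - v.2)
          = (α * (p.1 - v.1) + β * (p.2 - v.2)) + t * (β * (p.1 - v.1) - α * (p.2 - v.2)) := by ring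
      rw [this, hy, zero_add]
      exact mul_ne_zero ht hx
    · apply Filter.Eventually.filter_mono nhdsWithin_le_nhds
      have hcont : Continuous
          (fun t : ℝ => (α + t * β) * (p.1 - v.1) + (β - t * α) * (p.2 - v.2)) := by fun_prop
      have h0 : (fun t : ℝ => (α + t * β) * (p.1 - v.1) + (β - t * α) * (p.2 - v.2)) 0 ≠ 0 := by
        simpa using hy
      filter_upwards [(hcont.continuousAt (x := 0)).eventually_ne h0] with t ht _
      exact ht
  obtain ⟨t, ht1, ht2⟩ := (hev1.and hev2).exists
  exact ⟨α + t * β, β - t * α, ht1, ht2⟩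


lemma card_pos_sub_card_neg {ι : Type*} (s : Finset ι) (f : ι → ℝ) :
    ((s.filter (fun q => 0 < f q)).card : ℤ) - (s.filter (fun q => f q < 0)).card
      = ∑ q ∈ s, sg (f q) := by
  rw [Finset.card_filter, Finset.card_filter]
  push_cast
  rw [← Finset.sum_sub_distrib]
  refine Finset.sum_congr rfl ?_
  intro q _
  rw [sg_eq_ite]

lemma card_trichotomy {ι : Type*} (s : Finset ι) (f : ι → ℝ) :
    (s.filter (fun q => 0 < f q)).card + (s.filter (fun q => f q < 0)).card
      + (s.filter (fun q => f q = 0)).card = s.card := by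
  rw [Finset.card_filter, Finset.card_filter, Finset.card_filter, ← Finset.sum_add_distrib,
    ← Finset.sum_add_distrib, Finset.card_eq_sum_ones]
  refine Finset.sum_congr rfl ?_
  intro q _
  rcases lt_trichotomy (f q) 0 with h | h | h
  · simp [h, not_lt.2 h.le, h.ne]
  · simp [h]
  · simp [h, not_lt.2 h.le, h.ne']

lemma orient_self_right (v p : ℝ × ℝ) : orient v p v = 0 := by
  unfold orient; ring

lemma orient_self_right' (v p : ℝ × ℝ) : orient v p p = 0 := by
  unfold orient; ring

open Classical in
/-- Balance of halving edges at a vertex: if `v` is not in the convex hull of `S`, then the number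
of halving edges from `v` into `S` exceeds the number of the other halving edges at `v`
by at most one. -/
theorem local_ineq (P : Finset (ℝ × ℝ)) (hP : NoThreeCollinear P) (v : ℝ × ℝ) (hv : v ∈ P)
    (S : Finset (ℝ × ℝ)) (hS : v ∉ convexHull ℝ (S : Set (ℝ × ℝ))) :
    ((P.filter (fun u => IsHalving P v u ∧ u ∈ S)).card : ℤ)
      ≤ (P.filter (fun u => IsHalving P v u ∧ u ∉ S)).card + 1 := by
  obtain ⟨α, β, hposS, hgen⟩ := exists_generic_functional P S v hS
  by_cases hpar : Even P.card
  swap
  · -- no halving lines at all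
    have hno : ∀ u, ¬ IsHalving P v u := by
      intro u hu
      apply hpar
      rw [← hu.2.1]
      exact ⟨(P.filter (fun p => 0 < orient v u p)).card + 1, by ring⟩
    have : (P.filter (fun u => IsHalving P v u ∧ u ∈ S)) = ∅ := by
      apply Finset.filter_false_of_mem
      intro u _ h
      exact hno u h.1
    rw [this]
    simp only [Finset.card_empty, Nat.cast_zero]
    positivity
  set s := P.erase v with hs
  set y : ℝ × ℝ → ℝ := fun p => α * (p.1 - v.1) + β * (p.2 - v.2) with hy
  set x : ℝ × ℝ → ℝ := fun p => β * (p.1 - v.1) - α * (p.2 - v.2) with hx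
  set c : ℝ × ℝ → ℝ := fun p => - x p / y p with hc
  set e : ℝ × ℝ → ℤ := fun p => sg (y p) with he
  have hy0 : ∀ p ∈ s, y p ≠ 0 := by
    intro p hp
    exact hgen p (Finset.mem_of_mem_erase hp) (Finset.ne_of_mem_erase hp)
  have hsq : ∀ p ∈ s, 0 < α ^ 2 + β ^ 2 := by
    intro p hp
    have h0 := hy0 p hp
    by_contra hcon
    have ha : α = 0 := by nlinarith [sq_nonneg α, sq_nonneg β]
    have hb : β = 0 := by nlinarith [sq_nonneg α, sq_nonneg β]
    apply h0
    simp [hy, ha, hb]
  have key : ∀ p ∈ s, ∀ q ∈ s, (α ^ 2 + β ^ 2) * orient v p q = y p * y q * (c q - c p) := by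
    intro p hp q hq
    have h1 := hy0 p hp
    have h2 := hy0 q hq
    simp only [hc]
    field_simp
    simp only [hx, hy, orient]
    ring
  have hsign : ∀ p ∈ s, ∀ q ∈ s, sg (orient v p q) = e p * (e q * sg (c q - c p)) := by
    intro p hp q hq
    have h1 : sg ((α ^ 2 + β ^ 2) * orient v p q) = sg (orient v p q) := by
      rw [sg_mul, sg_pos (hsq p hp), one_mul]
    rw [← h1, key p hp q hq, sg_mul, sg_mul]
    ring
  have hesq : ∀ p ∈ s, e p = 1 ∨ e p = -1 := fun p hp => sg_ne_zero_cases (hy0 p hp)
  have hposneg : ∀ p ∈ s, ((P.filter (fun q => 0 < orient v p q)).card : ℤ)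
      - (P.filter (fun q => orient v p q < 0)).card = e p * Dsum s c e p := by
    intro p hp
    rw [card_pos_sub_card_neg, ← Finset.sum_erase P (a := v) (by rw [orient_self_right, sg_zero])]
    unfold Dsum
    rw [Finset.mul_sum]
    exact Finset.sum_congr rfl (fun q hq => hsign p hp q hq)
  have hzero : ∀ p ∈ s, (P.filter (fun q => orient v p q = 0)) = {v, p} := by
    intro p hp
    have hpP := Finset.mem_of_mem_erase hp
    have hpv := Finset.ne_of_mem_erase hp
    ext q
    simp only [Finset.mem_filter, Finset.mem_insert, Finset.mem_singleton]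
    constructor
    · rintro ⟨hq, h0⟩
      by_contra hcon
      push Not at hcon
      exact hP v hv p hpP q hq hpv.symm hcon.1.symm hcon.2.symm
        (collinear_of_orient_eq_zero hpv.symm h0)
    · rintro (rfl | rfl)
      · exact ⟨hv, orient_self_right _ _⟩
      · exact ⟨hpP, orient_self_right' _ _⟩
  have htotal : ∀ p ∈ s, (P.filter (fun q => 0 < orient v p q)).card
      + (P.filter (fun q => orient v p q < 0)).card + 2 = P.card := by
    intro p hp
    have h1 := card_trichotomy P (fun q => orient v p q)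
    rw [hzero p hp, Finset.card_pair (Finset.ne_of_mem_erase hp).symm] at h1
    exact h1
  have hinj : Set.InjOn c s := by
    intro p hp q hq hpq
    by_contra hne
    have hp' : p ∈ s := hp
    have hq' : q ∈ s := hq
    have h1 := key p hp' q hq'
    rw [hpq, sub_self, mul_zero] at h1
    have h2 := (mul_eq_zero.1 h1).resolve_left (hsq p hp').ne'
    have h3 : q ∈ P.filter (fun q => orient v p q = 0) := by
      simp only [Finset.mem_filter]
      exact ⟨Finset.mem_of_mem_erase hq', h2⟩
    rw [hzero p hp'] at h3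
    simp only [Finset.mem_insert, Finset.mem_singleton] at h3
    rcases h3 with h3 | h3
    · exact (Finset.ne_of_mem_erase hq') h3
    · exact hne h3.symm
  have hiff : ∀ p ∈ s, (IsHalving P v p ↔ Dsum s c e p = 0) := by
    intro p hp
    have h1 := hposneg p hp
    have h2 := htotal p hp
    constructor
    · rintro ⟨_, h3, h4⟩
      have h5 : ((P.filter (fun q => 0 < orient v p q)).card : ℤ)
          = (P.filter (fun q => orient v p q < 0)).card := by
        have : (P.filter (fun q => 0 < orient v p q)).card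
          = (P.filter (fun q => orient v p q < 0)).card := by omega
        exact_mod_cast this
      rw [h5, sub_self] at h1
      rcases hesq p hp with h6 | h6
      · rw [h6] at h1; linarith
      · rw [h6] at h1; linarith
    · intro h0
      rw [h0, mul_zero] at h1
      have h5 : (P.filter (fun q => 0 < orient v p q)).card
          = (P.filter (fun q => orient v p q < 0)).card := by
        have : ((P.filter (fun q => 0 < orient v p q)).card : ℤ)
          = (P.filter (fun q => orient v p q < 0)).card := by linarith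
        exact_mod_cast this
      refine ⟨(Finset.ne_of_mem_erase hp).symm, ?_, ?_⟩ <;> omega
  have hparD : ∀ p ∈ s, Even (Dsum s c e p) := by
    intro p hp
    have h1 := hposneg p hp
    have h2 := htotal p hp
    obtain ⟨k, hk⟩ := hpar
    have h3 : ((P.filter (fun q => 0 < orient v p q)).card : ℤ)
      + (P.filter (fun q => orient v p q < 0)).card + 2 = k + k := by
      have := h2.trans hk
      exact_mod_cast this
    rcases hesq p hp with h6 | h6
    · rw [h6] at h1
      refine ⟨k - 1 - (P.filter (fun q => orient v p q < 0)).card, ?_⟩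
      linarith
    · rw [h6] at h1
      refine ⟨k - 1 - (P.filter (fun q => 0 < orient v p q)).card, ?_⟩
      linarith
  have hcross := crossing c e s hinj hesq hparD
  have hsub1 : (P.filter (fun u => IsHalving P v u ∧ u ∈ S))
      ⊆ s.filter (fun i => Dsum s c e i = 0 ∧ e i = 1) := by
    intro u hu
    simp only [Finset.mem_filter] at hu ⊢
    obtain ⟨huP, hH, huS⟩ := hu
    have hus : u ∈ s := Finset.mem_erase.2 ⟨hH.1.symm, huP⟩
    exact ⟨hus, (hiff u hus).1 hH, sg_pos (hposS u huS)⟩
  have hsub2 : s.filter (fun i => Dsum s c e i = 0 ∧ e i = -1)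
      ⊆ (P.filter (fun u => IsHalving P v u ∧ u ∉ S)) := by
    intro u hu
    simp only [Finset.mem_filter] at hu ⊢
    obtain ⟨hus, hD, heu⟩ := hu
    refine ⟨Finset.mem_of_mem_erase hus, (hiff u hus).2 hD, ?_⟩
    intro huS
    have : e u = 1 := sg_pos (hposS u huS)
    rw [this] at heu
    norm_num at heu
  have h1 := Finset.card_le_card hsub1
  have h2 := Finset.card_le_card hsub2
  have h1' : ((P.filter (fun u => IsHalving P v u ∧ u ∈ S)).card : ℤ)
      ≤ (s.filter (fun i => Dsum s c e i = 0 ∧ e i = 1)).card := by exact_mod_cast h1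
  have h2' : ((s.filter (fun i => Dsum s c e i = 0 ∧ e i = -1)).card : ℤ)
      ≤ (P.filter (fun u => IsHalving P v u ∧ u ∉ S)).card := by exact_mod_cast h2
  linarith

end Vale.Agent.Lib.P065
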